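import Vale.Agent.H69.Tensor
import Vale.Agent.H57.CubicPencil

/-!
# The tangent cone of a hyperbolic cubic at a singular point is Lorentzian

Let `p(x) = tri T x x x` be a cubic form which is hyperbolic in direction `e`, and let `a` be a
singular point of `p` (the gradient of `p` vanishes at `a`, i.e. `tri T a a v = 0` for
every `v`) at which the Hessian form `v ↦ tri T a v v` is not identically zero.  Then
`tri T a e e ≠ 0` and the quadratic form `q(v) = tri T a v v` satisfies the reverse
Cauchy-Schwarz inequality `q(e) q(v) ≤ 2 B(e, v) ^ 2`.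
-/

namespace Vale.Agent.H39

open Vale.Agent.H69

/-- A real quadratic that is nonnegative everywhere has nonnegative leading coefficient. -/
theorem quad_lead_nonneg (α β γ : ℝ) (h : ∀ s : ℝ, 0 ≤ α * s ^ 2 + β * s + γ) : 0 ≤ α := by
  by_contra hα
  push Not at hα
  have hpos : 0 < -α := by linarith
  have hγ : 0 ≤ γ := by
    have := h 0
    simpa using this
  set t : ℝ := (γ + 1) / (-α) + 1 with ht
  have hdiv : 0 ≤ (γ + 1) / (-α) := div_nonneg (by linarith) hpos.le
  have ht1 : 1 ≤ t := by linarith
  have h1 := h t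
  have h2 : 0 ≤ α * t ^ 2 - β * t + γ := by
    have := h (-t)
    nlinarith [this]
  have h3 : 0 ≤ α * t ^ 2 + γ := by linarith
  have hne : -α ≠ 0 := hpos.ne'
  have h4 : (-α) * t = γ + 1 + (-α) := by
    rw [ht, mul_add, mul_one, mul_div_cancel₀ _ hne]
  nlinarith [mul_nonneg (mul_nonneg hpos.le (by linarith : (0 : ℝ) ≤ t))
    (by linarith : (0 : ℝ) ≤ t - 1)]

/-- A real linear function that is bounded above has zero slope. -/
theorem lin_bdd_zero (α γ : ℝ) (h : ∀ s : ℝ, α * s ≤ γ) : α = 0 := by
  by_contra hα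
  have h1 := h ((γ + 1) / α)
  have h2 : α * ((γ + 1) / α) = γ + 1 := mul_div_cancel₀ _ hα
  linarith

open Vale.Agent.H69 in
theorem node_localization {N : ℕ} (T : Fin N → Fin N → Fin N → ℝ)
    (h12 : ∀ i j l, T i j l = T j i l) (h23 : ∀ i j l, T i j l = T i l j) (e a : Fin N → ℝ)
    (hpe : 0 < tri T e e e)
    (hroots : ∀ x : Fin N → ℝ, ∀ z : ℂ,
      tri (fun i j l => (T i j l : ℂ)) (fun i => (e i : ℂ) * z - (x i : ℂ))
        (fun i => (e i : ℂ) * z - (x i : ℂ)) (fun i => (e i : ℂ) * z - (x i : ℂ)) = 0 → z.im = 0)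
    (ha : ∀ v : Fin N → ℝ, tri T a a v = 0) (hw : ∃ w : Fin N → ℝ, tri T a w w ≠ 0) :
    tri T a e e ≠ 0 ∧ ∀ v : Fin N → ℝ, tri T a e e * tri T a v v ≤ 2 * (tri T a e v) ^ 2 := by
  have hTc12 : ∀ i j l, ((T i j l : ℝ) : ℂ) = (T j i l : ℂ) := fun i j l => by rw [h12 i j l]
  have hTc23 : ∀ i j l, ((T i j l : ℝ) : ℂ) = (T i l j : ℂ) := fun i j l => by rw [h23 i j l]
  -- Newton's inequalities along every real line in direction `e`
  have hN : ∀ u : Fin N → ℝ,
      2 * tri T e e e * (3 * tri T e u u) ≤ (3 * tri T e e u) ^ 2 ∧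
      2 * (3 * tri T e e u) * tri T u u u ≤ (3 * tri T e u u) ^ 2 := by
    intro u
    have key := Vale.Agent.H57.newton_cubic (tri T e e e) (3 * tri T e e u) (3 * tri T e u u)
      (tri T u u u) hpe ?_
    · exact ⟨key.1, key.2.1⟩
    intro z hz
    apply hroots (-u) z
    have hξ : (fun i => (e i : ℂ) * z - (((-u) i : ℝ) : ℂ))
        = z • (fun i => (e i : ℂ)) + fun i => (u i : ℂ) := by
      funext i
      simp [mul_comm]
    rw [hξ, tri_add_cube hTc12 hTc23, tri_smul_left, tri_smul_mid, tri_smul_right, tri_smul_left,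
      tri_smul_mid, tri_smul_left, ← tri_ofReal, ← tri_ofReal, ← tri_ofReal, ← tri_ofReal]
    push_cast at hz ⊢
    linear_combination hz
  -- symmetry bookkeeping
  have h_eea : tri T e e a = tri T a e e := by
    rw [tri_swap23 h23 e e a, tri_swap12 h12 e a e]
  have h_eaa : tri T e a a = 0 := by
    rw [tri_swap12 h12 e a a, tri_swap23 h23 a e a]
    exact ha e
  have h_eav : ∀ v, tri T e a v = tri T a e v := fun v => tri_swap12 h12 e a v
  have h_eva : ∀ v, tri T e v a = tri T a e v := fun v => by
    rw [tri_swap23 h23 e v a, tri_swap12 h12 e a v]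
  -- expansions along `u = s • a + v`
  have hu1 : ∀ (s : ℝ) (v : Fin N → ℝ),
      tri T e e (s • a + v) = s * tri T a e e + tri T e e v := by
    intro s v
    rw [tri_add_right, tri_smul_right, h_eea]
  have hu2 : ∀ (s : ℝ) (v : Fin N → ℝ),
      tri T e (s • a + v) (s • a + v) = 2 * s * tri T a e v + tri T e v v := by
    intro s v
    simp only [tri_add_mid, tri_add_right, tri_smul_mid, tri_smul_right]
    rw [h_eaa, h_eav, h_eva]
    ring
  have hu3 : ∀ (s : ℝ) (v : Fin N → ℝ),
      tri T (s • a + v) (s • a + v) (s • a + v) = 3 * s * tri T a v v + tri T v v v := by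
    intro s v
    rw [tri_add_cube h12 h23, tri_smul_cube, tri_smul_left, tri_smul_mid, tri_smul_left, ha a, ha v]
    ring
  refine ⟨?_, ?_⟩
  · intro hQ
    -- the mixed form vanishes identically
    have hB : ∀ v, tri T a e v = 0 := by
      intro v
      have hlin := lin_bdd_zero (12 * tri T e e e * tri T a e v)
        (9 * (tri T e e v) ^ 2 - 6 * tri T e e e * tri T e v v) ?_
      · rcases mul_eq_zero.mp hlin with h | h
        · exfalso
          linarith
        · exact h
      intro s
      have h1 := (hN (s • a + v)).1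
      rw [hu1 s v, hu2 s v, hQ] at h1
      nlinarith [h1]
    have hLq : ∀ v, tri T e e v * tri T a v v = 0 := by
      intro v
      have hlin := lin_bdd_zero (18 * (tri T e e v * tri T a v v))
        (9 * (tri T e v v) ^ 2 - 6 * tri T e e v * tri T v v v) ?_
      · linarith
      intro s
      have h2 := (hN (s • a + v)).2
      rw [hu1 s v, hu2 s v, hu3 s v, hQ, hB v] at h2
      nlinarith [h2]
    obtain ⟨w, hw⟩ := hw
    have hLw : tri T e e w = 0 := by
      rcases mul_eq_zero.mp (hLq w) with h | h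
      · exact h
      · exact absurd h hw
    have hq : tri T a (w + e) (w + e) = tri T a w w := by
      simp only [tri_add_mid, tri_add_right]
      rw [tri_swap23 h23 a w e, hB w, hQ]
      ring
    have hfin := hLq (w + e)
    rw [hq, tri_add_right, hLw] at hfin
    rcases mul_eq_zero.mp hfin with h | h
    · linarith
    · exact hw h
  · intro v
    have hα := quad_lead_nonneg (36 * (tri T a e v) ^ 2 - 18 * (tri T a e e * tri T a v v))
      (36 * tri T a e v * tri T e v v - 6 * tri T a e e * tri T v v v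
        - 18 * tri T e e v * tri T a v v)
      (9 * (tri T e v v) ^ 2 - 6 * tri T e e v * tri T v v v) ?_
    · linarith
    intro s
    have h2 := (hN (s • a + v)).2
    rw [hu1 s v, hu2 s v, hu3 s v] at h2
    nlinarith [h2]

end Vale.Agent.H39
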